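import Vale.Agent.P088.H72.K.Tg3

/-!
# P088, theorem JB, row K_TG (temporal gauge): the exactly unitary gauge
-/

open MeasureTheory Set Filter Topology
open scoped ContDiff Matrix

noncomputable section

namespace Vale.Agent.P088.LR.K72

open Vale.Agent.P088.LR Vale.Agent.P088.LR.B Vale.Agent.P088.LR.CF Vale.Agent.P088.LR.U
  Vale.Agent.P088.LR.H158

variable {n N : ℕ} {ρ : V n → ℝ} {v : Fin n → V n → ℝ} {a₁ a₂ : MC n N}

/-- `U* U - 1` is flat. -/
theorem flat_Q (hρ : ContDiff ℝ ∞ ρ) (hv : ∀ i, ContDiff ℝ ∞ (v i)) {r₀ : ℝ} (hr₀ : 0 < r₀)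
    (h1 : ∀ x, |ρ x| < r₀ → ∑ i, v i x * pd i ρ x = 1) (s₁ : SmC a₁) (s₂ : SmC a₂)
    (k₁ : ∀ x, (a₁ x)ᴴ = -a₁ x) (k₂ : ∀ x, (a₂ x)ᴴ = -a₂ x) {U : MC n N} (hU : SmC U)
    {W : MC n N} (hW : SmC W) (hUW : ∀ x, U x = 1 + ((ρ x : ℝ) : ℂ) • W x)
    (hL : Fl ρ (LL v a₁ a₂ U)) : Fl ρ (fun x => (U x)ᴴ * U x - 1) := by
  set F : MC n N := LL v a₁ a₂ U with hF
  have sF : SmC F := sm_LL hv s₁ s₂ hU
  have sUs := SmC_star hU
  set Q : MC n N := fun x => (U x)ᴴ * U x - 1 with hQ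
  have sQ : SmC Q := sm_sub (SmC_mul sUs hU) (sm_const 1)
  -- the equation
  have hG : Fl ρ (fun x => (F x)ᴴ * U x + (U x)ᴴ * F x) := (hL.star.mulR hU).add (hL.mulL sUs)
  have hDU : ∀ x, DD v U x = U x * a₁ x - a₂ x * U x + F x := by
    intro x
    simp only [hF]
    unfold LL
    abel
  have hDQ : ∀ x, DD v Q x = Q x * a₁ x - a₁ x * Q x + ((F x)ᴴ * U x + (U x)ᴴ * F x) := by
    intro x
    have e1 : DD v Q x = DD v (fun x => (U x)ᴴ * U x) x := by
      have e2 : Q = fun x => (U x)ᴴ * U x + (fun _ : V n => (-1 : Matrix (Fin N) (Fin N) ℂ)) x := by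
        funext y
        exact sub_eq_add_neg _ _
      rw [e2, DD_add (SmC_mul sUs hU) (sm_const (-1)), DD_const, add_zero]
    rw [e1, DD_mul sUs hU, DD_star hU, hDU, Matrix.conjTranspose_add, Matrix.conjTranspose_sub,
      Matrix.conjTranspose_mul, Matrix.conjTranspose_mul, k₁, k₂]
    simp only [hQ]
    noncomm_ring
  -- the induction
  have key : ∀ m : ℕ, ∃ r > 0, ∃ E : MC n N, SmC E ∧ ∀ x, |ρ x| < r →
      Q x = ((ρ x ^ (m + 1) : ℝ) : ℂ) • E x := by
    intro m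
    induction m with
    | zero =>
      refine ⟨1, one_pos, fun x => (W x)ᴴ + W x + ((ρ x : ℝ) : ℂ) • ((W x)ᴴ * W x), ?_,
        fun x _ => ?_⟩
      · exact sm_add (sm_add (SmC_star hW) hW) (sm_smul (cxd hρ) (SmC_mul (SmC_star hW) hW))
      · simp only [hQ]
        rw [hUW x, Matrix.conjTranspose_add, Matrix.conjTranspose_one, Matrix.conjTranspose_smul,
          Complex.star_def, Complex.conj_ofReal]
        simp only [mul_add, add_mul, mul_one, one_mul, Matrix.smul_mul, Matrix.mul_smul]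
        push_cast
        module
    | succ m ih =>
      obtain ⟨r, hr, E, hE, h2⟩ := ih
      obtain ⟨r', hr', G, hG', h3⟩ := hG (m + 1)
      set H : MC n N := fun x => E x * a₁ x - a₁ x * E x + G x - DD v E x with hH
      have sH : SmC H := sm_sub (sm_add (sm_sub (SmC_mul hE s₁) (SmC_mul s₁ hE)) hG') (sm_DD hv hE)
      refine ⟨min (min r r') r₀, by positivity, fun x => (1 / ((m : ℂ) + 1)) • H x,
        sm_smul contDiff_const sH, fun x hx => ?_⟩
      have hx1 : |ρ x| < r := hx.trans_le ((min_le_left _ _).trans (min_le_left _ _))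
      have hx2 : |ρ x| < r' := hx.trans_le ((min_le_left _ _).trans (min_le_right _ _))
      have hx3 : |ρ x| < r₀ := hx.trans_le (min_le_right _ _)
      have h4 := hDQ x
      have h3' : (F x)ᴴ * U x + (U x)ᴴ * F x = ((ρ x ^ (m + 1) : ℝ) : ℂ) • G x := h3 x hx2
      rw [DD_congr hρ h2 hx1, DD_smulr (hρ.pow (m + 1)) hE, D_pow hρ m (h1 x hx3), h2 x hx1,
        h3', Matrix.smul_mul, Matrix.mul_smul] at h4
      have h5 : ((((m : ℝ) + 1) * ρ x ^ m : ℝ) : ℂ) • E x = ((ρ x ^ (m + 1) : ℝ) : ℂ) • H x := by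
        simp only [hH]
        rw [smul_sub, smul_add, smul_sub, ← h4]
        abel
      rw [h2 x hx1]
      rcases eq_or_ne (ρ x) 0 with h0 | h0
      · rw [h0]
        simp
      · have h6 : ((ρ x : ℝ) : ℂ) ≠ 0 := by exact_mod_cast h0
        have h7 : ((m : ℂ) + 1) ≠ 0 := Nat.cast_add_one_ne_zero m
        have h8 : E x = ((ρ x : ℝ) : ℂ) • ((1 / ((m : ℂ) + 1)) • H x) := by
          have h9 := congrArg (fun P => ((((m : ℂ) + 1) * ((ρ x : ℝ) : ℂ) ^ m)⁻¹) • P) h5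
          simp only [smul_smul] at h9
          rw [smul_smul]
          have e1 : (((m : ℂ) + 1) * ((ρ x : ℝ) : ℂ) ^ m)⁻¹ *
              ((((m : ℝ) + 1) * ρ x ^ m : ℝ) : ℂ) = 1 := by
            push_cast
            exact inv_mul_cancel₀ (mul_ne_zero h7 (pow_ne_zero _ h6))
          have e2 : (((m : ℂ) + 1) * ((ρ x : ℝ) : ℂ) ^ m)⁻¹ * ((ρ x ^ (m + 1) : ℝ) : ℂ) =
              ((ρ x : ℝ) : ℂ) * (1 / ((m : ℂ) + 1)) := by
            push_cast
            rw [pow_succ]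
            field_simp
          rw [e1, one_smul, e2] at h9
          exact h9
        conv_lhs => rw [h8]
        rw [smul_smul]
        congr 1
        push_cast
        ring
  intro m
  cases m with
  | zero => exact ⟨1, one_pos, Q, sQ, fun x _ => by rw [pow_zero, Complex.ofReal_one, one_smul]⟩
  | succ m => exact key m

/-- The exactly unitary gauge. -/
theorem cayley (k : ℕ) {ε : ℝ} (hε : 0 < ε) : ∃ δ > 0, ∀ U₀ : MC n N,
    SmC U₀ → ClC k δ (fun x => U₀ x - 1) → Fl ρ (fun x => (U₀ x)ᴴ * U₀ x - 1) →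
    ∃ U : MC n N, SmC U ∧ (∀ x, (U x)ᴴ * U x = 1) ∧ ClC k ε (fun x => U x - 1) ∧
      Fl ρ (fun x => U x - U₀ x) := by
  obtain ⟨C, ε₀, hC, hε₀, hinv⟩ := H91.inv n N k
  set c : ℝ := N * 2 ^ k + 1 with hc
  have hc0 : 0 < c := by positivity
  -- sizes: `R - 1` is `C δ`, `X` is `c δ (1 + C δ)`
  set D : ℝ := c * (1 + C) with hDd
  have hD0 : 0 < D := by positivity
  set δ : ℝ := min (min 1 ε₀) (min (ε₀ / D) (ε / (4 * D * (1 + C * ε₀) * c + 4 * D))) with hδ
  have hδ0 : 0 < δ := by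
    rw [hδ]
    have : 0 < 4 * D * (1 + C * ε₀) * c + 4 * D := by positivity
    exact lt_min (lt_min one_pos hε₀) (lt_min (by positivity) (by positivity))
  have hδ1 : δ ≤ 1 := (min_le_left _ _).trans (min_le_left _ _)
  have hδ2 : δ ≤ ε₀ := (min_le_left _ _).trans (min_le_right _ _)
  have hδ3 : D * δ ≤ ε₀ := by
    have : δ ≤ ε₀ / D := (min_le_right _ _).trans (min_le_left _ _)
    rw [le_div_iff₀ hD0] at this
    linarith
  have hδ4 : (4 * D * (1 + C * ε₀) * c + 4 * D) * δ ≤ ε := by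
    have : δ ≤ ε / (4 * D * (1 + C * ε₀) * c + 4 * D) := (min_le_right _ _).trans (min_le_right _ _)
    rw [le_div_iff₀ (by positivity)] at this
    linarith
  refine ⟨δ, hδ0, fun U₀ hU₀ cU₀ hfl => ?_⟩
  have s1 : SmC (fun x => U₀ x - 1) := sm_sub hU₀ (sm_const 1)
  -- `H = (1 + U₀) / 2`
  set H : MC n N := fun x => (1 / 2 : ℂ) • (1 + U₀ x) with hH
  have sH : SmC H := sm_smul contDiff_const (sm_add (sm_const 1) hU₀)
  have cH : ClC k δ (fun x => H x - 1) := by
    have e : (fun x => H x - 1) = fun x => (1 / 2 : ℂ) • (U₀ x - 1) := by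
      funext x
      simp only [hH]
      module
    rw [e]
    exact clc_scal s1 cU₀ (by norm_num)
  obtain ⟨hdet, sR, cR⟩ := hinv H sH δ hδ0.le hδ2 cH
  set R : MC n N := fun x => (H x)⁻¹ with hR
  have hHR : ∀ x, H x * R x = 1 := fun x => Matrix.mul_nonsing_inv (H x) (hdet x)
  have hRH : ∀ x, R x * H x = 1 := fun x => Matrix.nonsing_inv_mul (H x) (hdet x)
  -- `X = (1 - U₀) (1 + U₀)⁻¹`
  set X : MC n N := fun x => (1 / 2 : ℂ) • ((1 - U₀ x) * R x) with hX
  have sX : SmC X := sm_smul contDiff_const (SmC_mul (sm_sub (sm_const 1) hU₀) sR)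
  have hXH : ∀ x, X x * H x = (1 / 2 : ℂ) • (1 - U₀ x) := by
    intro x
    simp only [hX]
    rw [Matrix.smul_mul, mul_assoc, hRH, mul_one]
  have cX : ClC k (D * δ) X := by
    have sR1 : SmC (fun x => R x - 1) := sm_sub sR (sm_const 1)
    have e : X = fun x => (-(1 / 2) : ℂ) • ((U₀ x - 1) + (U₀ x - 1) * (R x - 1)) := by
      funext x
      simp only [hX]
      have : (1 - U₀ x) * R x = -((U₀ x - 1) + (U₀ x - 1) * (R x - 1)) := by noncomm_ring
      rw [this, smul_neg, neg_smul]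
    rw [e]
    have h2 := clc_mul s1 sR1 cU₀ cR
    have h3 := clc_scal (sm_add s1 (SmC_mul s1 sR1)) (clc_add s1 (SmC_mul s1 sR1) cU₀ h2)
      (c := (-(1 / 2) : ℂ)) (by norm_num)
    refine clc_le h3 le_rfl ?_
    have h4 : (0 : ℝ) ≤ N * 2 ^ k := by positivity
    have h5 : (N : ℝ) * (2 ^ k * (δ * (C * δ))) = (N * 2 ^ k) * C * δ * δ := by ring
    have h6 : (N * 2 ^ k) * C * δ * δ ≤ (N * 2 ^ k) * C * δ * 1 := by
      have : 0 ≤ (N * 2 ^ k) * C * δ := by positivity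
      exact mul_le_mul_of_nonneg_left hδ1 this
    rw [h5, hDd, hc]
    nlinarith [mul_pos hC hδ0, mul_nonneg h4 hδ0.le]
  -- `Y = X + X*` is flat
  have sXs := SmC_star sX
  have hY : Fl ρ (fun x => X x + (X x)ᴴ) := by
    have h2 := (hfl.mulL (Q := fun x => (-(1 / 2) : ℂ) • (R x)ᴴ)
      (sm_smul contDiff_const (SmC_star sR))).mulR sR
    refine h2.congr one_pos fun x _ => ?_
    have e1 : (R x)ᴴ * (H x)ᴴ = 1 := by
      rw [← Matrix.conjTranspose_mul, hHR, Matrix.conjTranspose_one]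
    have e2 : (H x)ᴴ * (X x)ᴴ = (1 / 2 : ℂ) • (1 - (U₀ x)ᴴ) := by
      rw [← Matrix.conjTranspose_mul, hXH, Matrix.conjTranspose_smul, Matrix.conjTranspose_sub,
        Matrix.conjTranspose_one]
      simp
    have e3 : (H x)ᴴ = (1 / 2 : ℂ) • (1 + (U₀ x)ᴴ) := by
      simp only [hH]
      rw [Matrix.conjTranspose_smul, Matrix.conjTranspose_add, Matrix.conjTranspose_one]
      simp
    have e4 : (H x)ᴴ * (X x + (X x)ᴴ) * H x = (-(1 / 2) : ℂ) • ((U₀ x)ᴴ * U₀ x - 1) := by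
      rw [mul_add, add_mul, mul_assoc, hXH, e2, e3]
      simp only [hH]
      rw [Matrix.smul_mul, Matrix.smul_mul, Matrix.mul_smul, Matrix.mul_smul, smul_smul,
        smul_smul, ← smul_add]
      have e5 : (1 + (U₀ x)ᴴ) * (1 - U₀ x) + (1 - (U₀ x)ᴴ) * (1 + U₀ x) =
          (-2 : ℂ) • ((U₀ x)ᴴ * U₀ x - 1) := by
        have e51 : (1 + (U₀ x)ᴴ) * (1 - U₀ x) + (1 - (U₀ x)ᴴ) * (1 + U₀ x) =
            1 + 1 - ((U₀ x)ᴴ * U₀ x + (U₀ x)ᴴ * U₀ x) := by noncomm_ring
        rw [e51]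
        module
      rw [e5, smul_smul]
      norm_num
    have e6 : X x + (X x)ᴴ = (R x)ᴴ * ((H x)ᴴ * (X x + (X x)ᴴ) * H x) * R x := by
      calc X x + (X x)ᴴ = ((R x)ᴴ * (H x)ᴴ) * (X x + (X x)ᴴ) * (H x * R x) := by
            rw [e1, hHR, one_mul, mul_one]
        _ = _ := by noncomm_ring
    rw [e6, e4, Matrix.mul_smul, Matrix.smul_mul, Matrix.smul_mul, Matrix.smul_mul]
  -- the anti-Hermitian part
  set Z : MC n N := fun x => (1 / 2 : ℂ) • (X x - (X x)ᴴ) with hZ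
  have sZ : SmC Z := sm_smul contDiff_const (sm_sub sX sXs)
  have hZs : ∀ x, (Z x)ᴴ = -Z x := by
    intro x
    simp only [hZ]
    rw [Matrix.conjTranspose_smul, Matrix.conjTranspose_sub, Matrix.conjTranspose_conjTranspose]
    simp only [one_div, star_inv₀, star_ofNat]
    module
  have cXs : ClC k (D * δ) (fun x => (X x)ᴴ) := fun α β => by
    have h2 := H535.cl_lin (Complex.conjCLE : ℂ →L[ℝ] ℂ) (by
      refine ContinuousLinearMap.opNorm_le_bound _ zero_le_one fun z => ?_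
      show ‖(starRingEnd ℂ) z‖ ≤ _
      rw [RCLike.norm_conj, one_mul]) (sX β α) (cX β α)
    exact h2
  have cZ : ClC k (D * δ) Z := by
    have e : Z = fun x => (1 / 2 : ℂ) • X x + (-(1 / 2) : ℂ) • (X x)ᴴ := by
      funext x
      simp only [hZ]
      module
    have hh : ∀ {P : MC n N}, SmC P → ClC k (D * δ) P → ClC k (D * δ / 2)
        (fun x => (1 / 2 : ℂ) • P x) := by
      intro P hP cP α β
      have h2 := H91.cl_clm (((1 / 2 : ℂ)) • ContinuousLinearMap.id ℝ ℂ) (hP α β) (cP α β)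
      have h3 : ‖((1 / 2 : ℂ)) • ContinuousLinearMap.id ℝ ℂ‖ ≤ 1 / 2 := by
        refine ContinuousLinearMap.opNorm_le_bound _ (by norm_num) fun z => ?_
        show ‖(1 / 2 : ℂ) * z‖ ≤ _
        rw [norm_mul]
        norm_num
      refine H535.cl_le h2 le_rfl ?_
      have h5 : 0 ≤ D * δ := by positivity
      nlinarith
    rw [e]
    have h4 := hh sX cX
    have h5 := hh sXs cXs
    have h6 := clc_scal (sm_smul contDiff_const sXs) h5 (c := (-1 : ℂ)) (by simp)
    have h7 := clc_add (sm_smul contDiff_const sX) (sm_smul contDiff_const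
      (sm_smul contDiff_const sXs)) h4 h6
    have e7 : (fun x => (1 / 2 : ℂ) • X x + (-1 : ℂ) • ((1 / 2 : ℂ) • (X x)ᴴ)) =
        fun x => (1 / 2 : ℂ) • X x + (-(1 / 2) : ℂ) • (X x)ᴴ := by
      funext x
      module
    rw [e7] at h7
    exact clc_le h7 le_rfl (by linarith)
  -- `T = (1 + Z)⁻¹`
  set L : MC n N := fun x => 1 + Z x with hL
  have sL : SmC L := sm_add (sm_const 1) sZ
  have cL : ClC k (D * δ) (fun x => L x - 1) := by
    have e : (fun x => L x - 1) = Z := by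
      funext x
      simp only [hL, add_sub_cancel_left]
    rw [e]
    exact cZ
  obtain ⟨hdetL, sT, cT⟩ := hinv L sL (D * δ) (by positivity) hδ3 cL
  set T : MC n N := fun x => (L x)⁻¹ with hT
  have hLT : ∀ x, (1 + Z x) * T x = 1 := fun x => Matrix.mul_nonsing_inv (L x) (hdetL x)
  have hTL : ∀ x, T x * (1 + Z x) = 1 := fun x => Matrix.nonsing_inv_mul (L x) (hdetL x)
  have hTs : ∀ x, (T x)ᴴ * (1 - Z x) = 1 := by
    intro x
    have h2 := congrArg Matrix.conjTranspose (hLT x)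
    rw [Matrix.conjTranspose_mul, Matrix.conjTranspose_add, Matrix.conjTranspose_one, hZs,
      ← sub_eq_add_neg] at h2
    exact h2
  set U : MC n N := fun x => (1 - Z x) * T x with hUd
  have sU : SmC U := SmC_mul (sm_sub (sm_const 1) sZ) sT
  refine ⟨U, sU, fun x => ?_, ?_, ?_⟩
  · have e1 : (U x)ᴴ = (T x)ᴴ * (1 + Z x) := by
      simp only [hUd]
      rw [Matrix.conjTranspose_mul, Matrix.conjTranspose_sub, Matrix.conjTranspose_one, hZs,
        sub_neg_eq_add]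
    rw [e1]
    simp only [hUd]
    calc (T x)ᴴ * (1 + Z x) * ((1 - Z x) * T x) = ((T x)ᴴ * (1 - Z x)) * ((1 + Z x) * T x) := by
          noncomm_ring
      _ = 1 := by rw [hTs, hLT, one_mul]
  · have sT1 : SmC (fun x => T x - 1) := sm_sub sT (sm_const 1)
    have e : (fun x => U x - 1) = fun x => (-1 : ℂ) • ((Z x + Z x) +
        (Z x * (T x - 1) + Z x * (T x - 1))) := by
      funext x
      simp only [hUd]
      have h2 := hLT x
      have h3 : (1 - Z x) * T x - (1 + Z x) * T x = -((Z x + Z x) +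
          (Z x * (T x - 1) + Z x * (T x - 1))) := by noncomm_ring
      rw [h2] at h3
      rw [h3, neg_smul, one_smul]
    rw [e]
    have h2 := clc_mul sZ sT1 cZ cT
    have sZT := SmC_mul sZ sT1
    have h3 := clc_add (sm_add sZ sZ) (sm_add sZT sZT) (clc_add sZ sZ cZ cZ)
      (clc_add sZT sZT h2 h2)
    refine clc_le (clc_scal (sm_add (sm_add sZ sZ) (sm_add sZT sZT)) h3 (c := (-1 : ℂ))
      (by simp)) le_rfl ?_
    have h4 : (N : ℝ) * (2 ^ k * (D * δ * (C * (D * δ)))) ≤ c * (D * δ) * (C * ε₀) := by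
      have h5 : (N : ℝ) * (2 ^ k * (D * δ * (C * (D * δ)))) =
          (N * 2 ^ k) * (D * δ) * (C * (D * δ)) := by ring
      rw [h5]
      have h6 : C * (D * δ) ≤ C * ε₀ := mul_le_mul_of_nonneg_left hδ3 hC.le
      have h7 : (N : ℝ) * 2 ^ k ≤ c := by rw [hc]; linarith
      have h8 : 0 ≤ D * δ := by positivity
      have h9 : 0 ≤ C * (D * δ) := by positivity
      exact mul_le_mul (mul_le_mul_of_nonneg_right h7 h8) h6 h9 (by positivity)
    have h10 : 0 ≤ D * δ * c := by positivity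
    have h11 : 0 ≤ D * δ := by positivity
    nlinarith [hδ4, h4]
  · have hXZ : Fl ρ (fun x => Z x - X x) := by
      refine (hY.smulf (f := fun _ => (-(1 / 2) : ℂ)) contDiff_const).congr one_pos
        fun x _ => ?_
      simp only [hZ]
      module
    have h2 := (hXZ.mulL (Q := fun x => (-1 : ℂ) • T x) (sm_smul contDiff_const sT)).mulR
      (Q := fun x => 1 + U₀ x) (sm_add (sm_const 1) hU₀)
    refine h2.congr one_pos fun x _ => ?_
    have e1 : (1 + Z x) * U x = 1 - Z x := by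
      simp only [hUd]
      calc (1 + Z x) * ((1 - Z x) * T x) = (1 - Z x) * ((1 + Z x) * T x) := by noncomm_ring
        _ = _ := by rw [hLT, mul_one]
    have e2 : (1 + X x) * U₀ x = 1 - X x := by
      have h3 := hXH x
      simp only [hH] at h3
      rw [Matrix.mul_smul] at h3
      have h4 : X x * (1 + U₀ x) = 1 - U₀ x := by
        have h5 := congrArg (fun P => (2 : ℂ) • P) h3
        simp only [smul_smul] at h5
        norm_num at h5
        exact h5
      have h6 : X x + X x * U₀ x = 1 - U₀ x := by rw [← h4]; noncomm_ring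
      have h7 : (1 + X x) * U₀ x = (X x + X x * U₀ x) + U₀ x - X x := by noncomm_ring
      rw [h7, h6]
      abel
    have e3 : (1 + Z x) * (U x - U₀ x) = -((Z x - X x) * (1 + U₀ x)) := by
      have h3 : (1 + Z x) * (U x - U₀ x) = (1 + Z x) * U x - (1 + X x) * U₀ x -
          (Z x - X x) * U₀ x := by noncomm_ring
      rw [h3, e1, e2]
      noncomm_ring
    calc U x - U₀ x = (T x * (1 + Z x)) * (U x - U₀ x) := by rw [hTL, one_mul]
      _ = T x * ((1 + Z x) * (U x - U₀ x)) := by rw [mul_assoc]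
      _ = _ := by
        rw [e3, neg_smul, one_smul]
        noncomm_ring

/-- `∑ v_i A_i`. -/
def av (v : Fin n → V n → ℝ) (A : Cn n N) : MC n N := fun x => ∑ i, ((v i x : ℝ) : ℂ) • A i x

theorem sm_av (hv : ∀ i, ContDiff ℝ ∞ (v i)) {A : Cn n N} (hA : SmU A) : SmC (av v A) :=
  sm_sum _ fun i => sm_smul (cxd (hv i)) (hA.1 i)

theorem star_av {A : Cn n N} (hA : SmU A) (x : V n) : (av v A x)ᴴ = -av v A x := by
  unfold av
  rw [Matrix.conjTranspose_sum, ← Finset.sum_neg_distrib]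
  refine Finset.sum_congr rfl fun i _ => ?_
  rw [Matrix.conjTranspose_smul, hA.2 i x, Complex.star_def, Complex.conj_ofReal, smul_neg]

/-- **(K_TG) the formal temporal gauge.** -/
theorem tg : K.RowTG := by
  intro n N ρ hD k ε hε
  have hρ := hD.sm
  obtain ⟨v, hv, h0, r, hr, h1⟩ := exists_v hD
  obtain ⟨δ₁, hδ₁, hcay⟩ := cayley (N := N) (ρ := ρ) k hε
  obtain ⟨K₀, δ₂, hδ₂, hser⟩ := series (N := N) hD hv h0 hr (fun x hx => (h1 x hx).1) k hδ₁
  obtain ⟨Bv, hB0, hB⟩ := exists_Bv hv h0 K₀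
  set δ : ℝ := δ₂ / (n * (2 ^ K₀ * Bv) + 1) with hδ
  have hδ0 : 0 < δ := by positivity
  have hδ3 : n * (2 ^ K₀ * (Bv * δ)) ≤ δ₂ := by
    have h2 : (n * (2 ^ K₀ * Bv) + 1) * δ = δ₂ := by
      rw [hδ]
      field_simp
    nlinarith
  refine ⟨K₀, δ, hδ0, fun A₁ B hA hB' cA cB => ?_⟩
  have cav : ∀ {A : Cn n N}, SmU A → (∀ i, ClC K₀ δ (A i)) → ClC K₀ δ₂ (av v A) := by
    intro A hA cA
    have h2 := clc_sum (Finset.univ : Finset (Fin n)) (k := K₀) (a := 2 ^ K₀ * (Bv * δ))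
      (P := fun i x => ((v i x : ℝ) : ℂ) • A i x) (fun i => sm_smul (cxd (hv i)) (hA.1 i))
      (fun i => clc_smulf (hv i) (hA.1 i) (hB i) (cA i))
    rw [Finset.card_univ, Fintype.card_fin] at h2
    exact clc_le h2 le_rfl hδ3
  have s₁ := sm_av (v := v) hv hA
  have s₂ := sm_av (v := v) hv hB'
  obtain ⟨U₀, sU₀, cU₀, ⟨W, sW, hUW⟩, hL⟩ := hser (av v A₁) (av v B) s₁ s₂ (cav hA cA)
    (cav hB' cB)
  have hQ := flat_Q hρ hv hr (fun x hx => (h1 x hx).1) s₁ s₂ (star_av hA) (star_av hB') sU₀ sW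
    hUW hL
  obtain ⟨U, sU, hU1, cU, hfl⟩ := hcay U₀ sU₀ cU₀ hQ
  -- the equation of `U`
  have hLU : Fl ρ (LL v (av v A₁) (av v B) U) := by
    have sd : SmC (fun x => U x - U₀ x) := sm_sub sU sU₀
    refine (hL.add (hfl.LL hρ hv s₁ s₂)).congr one_pos fun x _ => ?_
    have e : U = fun x => U₀ x + (fun x => U x - U₀ x) x := by
      funext y
      simp
    conv_lhs => rw [e]
    rw [LL_add sU₀ sd]
  have hfin : Fl ρ (fun x => ∑ i, ((pd i ρ x : ℝ) : ℂ) • (K.gA U B i x - A₁ i x)) := by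
    have s3 : ContDiff ℝ ∞ (fun x => ((∑ j, pd j ρ x ^ 2 : ℝ) : ℂ)) :=
      cxd (ContDiff.sum fun j _ => (H833.cd_pd hρ j).pow 2)
    refine ((hLU.mulL (SmC_star sU)).smulf s3).congr hr fun x hx => ?_
    obtain ⟨-, h3⟩ := h1 x hx
    have e1 : ∀ i, ((pd i ρ x : ℝ) : ℂ) • (K.gA U B i x - A₁ i x) =
        ((∑ j, pd j ρ x ^ 2 : ℝ) : ℂ) • (((v i x : ℝ) : ℂ) • (K.gA U B i x - A₁ i x)) := by
      intro i
      rw [smul_smul, ← Complex.ofReal_mul, ← h3 i]
    rw [Finset.sum_congr rfl fun i _ => e1 i, ← Finset.smul_sum]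
    congr 1
    have e2 : (U x)ᴴ * LL v (av v A₁) (av v B) U x =
        (U x)ᴴ * DD v U x + (U x)ᴴ * av v B x * U x - av v A₁ x := by
      unfold LL
      rw [mul_sub, mul_add, ← mul_assoc, ← mul_assoc, hU1, one_mul]
    rw [e2]
    unfold DD av K.gA
    rw [Finset.mul_sum, Finset.mul_sum, Finset.sum_mul, ← Finset.sum_add_distrib,
      ← Finset.sum_sub_distrib]
    refine Finset.sum_congr rfl fun i _ => ?_
    rw [Matrix.mul_smul, Matrix.mul_smul, Matrix.smul_mul, smul_sub, smul_add]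
    abel
  refine ⟨U, sU, hU1, fun x hx => ?_, cU, fun m => ?_⟩
  · have h2 := hfl.zero hx
    have h3 : U₀ x = 1 := by
      rw [hUW x, hx]
      simp
    rw [← h3]
    exact sub_eq_zero.1 h2
  · obtain ⟨r', hr', E, hE, h2⟩ := hfin m
    exact ⟨r', hr', E, hE, h2⟩

end Vale.Agent.P088.LR.K72
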