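import Vale.Agent.P088.H72.X.TopX
import Vale.Agent.P088.H72.K.Tg4
import Vale.Agent.P088.H129.KDat
import Vale.Agent.P088.H378.KGs
import Vale.Agent.P088.H158.KMp
import Vale.Agent.P088.H109.Hdy
import Vale.Agent.P088.H589.KEnA
import Vale.Agent.P088.H947.KGa
import Vale.Agent.P088.H397.KInf
import Vale.Agent.P088.H873.KExt
import Vale.Agent.P088.H738.KFin
import Vale.Agent.P088.H798.KTop
import Vale.Agent.P088.H535.USmk
import Vale.Agent.P088.H207.L8
import Vale.Agent.P088.H607.K.BdF

/-!
# P088, theorem JB (joint local uniqueness on every smooth bounded domain): assembly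
-/

open MeasureTheory Set
open scoped ContDiff Matrix

noncomputable section

namespace Vale.Agent.P088.LR.K

open Vale.Agent.P088.LR Vale.Agent.P088.LR.B Vale.Agent.P088.LR.CF Vale.Agent.P088.LR.U

/-- The energy estimate. -/
theorem en : RowEN := H589.en H109.Hdy.hdy

/-- Theorem JB over the boundary step. -/
theorem finJ_of_bd (hBD : RowBD) : FinJ :=
  H798.ktop H129.dat (H738.finK H873.topo H501B.rowBOREL BX.map H292.ext H873.exc H158.mp K72.tg
    H947.KG.ga H378.gs H535.smk (H397.KI.kinf H641.rowHAD hBD H873.topo)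
    fun n N hn hN => H207.L.rigU n N (by omega) hN)

/-- Theorem JB over the row CON. -/
theorem finJ_of_con (hCON : RowCON) : FinJ := finJ_of_bd (H607.K.bdK hCON en)

/-- Theorem JB over the rows CG, CON. -/
theorem finJ_of (hCG : RowCG) (hCON : RowCG → RowCON) : FinJ := finJ_of_con (hCON hCG)

end Vale.Agent.P088.LR.K
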