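import Vale.Agent.P088.H91.UInv
import Vale.Agent.P088.H634.UCoreA
import Vale.Agent.P088.H705.UFin
import Vale.Agent.P088.H501.Borel
import Vale.Agent.P088.H833.RecC

/-!
# P088, theorem JB, row K_TG (temporal gauge), first part: matrix functions flat at the boundary
-/

open MeasureTheory Set Filter Topology
open scoped ContDiff Matrix

noncomputable section

namespace Vale.Agent.P088.LR.K72

open Vale.Agent.P088.LR Vale.Agent.P088.LR.B Vale.Agent.P088.LR.CF Vale.Agent.P088.LR.U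
  Vale.Agent.P088.LR.H158

variable {n N : ℕ} {ρ : V n → ℝ}

/-- Flat along `{ρ = 0}`. -/
def Fl (ρ : V n → ℝ) (P : MC n N) : Prop := ∀ m : ℕ, ∃ r > 0, ∃ E : MC n N, SmC E ∧
  ∀ x, |ρ x| < r → P x = ((ρ x ^ m : ℝ) : ℂ) • E x

theorem sm_add {P Q : MC n N} (hP : SmC P) (hQ : SmC Q) : SmC (fun x => P x + Q x) :=
  fun a b => (hP a b).add (hQ a b)

theorem sm_smul {f : V n → ℂ} (hf : ContDiff ℝ ∞ f) {P : MC n N} (hP : SmC P) :
    SmC (fun x => f x • P x) := fun a b => hf.mul (hP a b)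

theorem cxd {f : V n → ℝ} (hf : ContDiff ℝ ∞ f) : ContDiff ℝ ∞ fun x => ((f x : ℝ) : ℂ) :=
  Complex.ofRealCLM.contDiff.comp hf

theorem sm_pdm {P : MC n N} (hP : SmC P) (i : Fin n) : SmC (pdm i P) := fun a b => by
  have h : (fun x => pdm i P x a b) = pd i fun y => P y a b := rfl
  rw [h]
  exact ((hP a b).fderiv_right (by simp)).clm_apply contDiff_const

theorem Fl.congr {P Q : MC n N} (h : Fl ρ P) {r₀ : ℝ} (hr : 0 < r₀)
    (he : ∀ x, |ρ x| < r₀ → Q x = P x) : Fl ρ Q := by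
  intro m
  obtain ⟨r, hr1, E, hE, h1⟩ := h m
  refine ⟨min r r₀, lt_min hr1 hr, E, hE, fun x hx => ?_⟩
  rw [he x (hx.trans_le (min_le_right _ _)), h1 x (hx.trans_le (min_le_left _ _))]

theorem Fl.add {P Q : MC n N} (h : Fl ρ P) (h' : Fl ρ Q) : Fl ρ (fun x => P x + Q x) := by
  intro m
  obtain ⟨r, hr, E, hE, h1⟩ := h m
  obtain ⟨r', hr', E', hE', h2⟩ := h' m
  refine ⟨min r r', lt_min hr hr', fun x => E x + E' x, sm_add hE hE', fun x hx => ?_⟩
  show P x + Q x = _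
  rw [h1 x (hx.trans_le (min_le_left _ _)), h2 x (hx.trans_le (min_le_right _ _)), smul_add]

theorem Fl.mulL {P Q : MC n N} (hQ : SmC Q) (h : Fl ρ P) : Fl ρ (fun x => Q x * P x) := by
  intro m
  obtain ⟨r, hr, E, hE, h1⟩ := h m
  refine ⟨r, hr, fun x => Q x * E x, SmC_mul hQ hE, fun x hx => ?_⟩
  show Q x * P x = _
  rw [h1 x hx, Matrix.mul_smul]

theorem Fl.mulR {P Q : MC n N} (h : Fl ρ P) (hQ : SmC Q) : Fl ρ (fun x => P x * Q x) := by
  intro m
  obtain ⟨r, hr, E, hE, h1⟩ := h m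
  refine ⟨r, hr, fun x => E x * Q x, SmC_mul hE hQ, fun x hx => ?_⟩
  show P x * Q x = _
  rw [h1 x hx, Matrix.smul_mul]

theorem Fl.smulf {P : MC n N} {f : V n → ℂ} (hf : ContDiff ℝ ∞ f) (h : Fl ρ P) :
    Fl ρ (fun x => f x • P x) := by
  intro m
  obtain ⟨r, hr, E, hE, h1⟩ := h m
  refine ⟨r, hr, fun x => f x • E x, sm_smul hf hE, fun x hx => ?_⟩
  show f x • P x = _
  rw [h1 x hx, smul_comm]

theorem Fl.neg {P : MC n N} (h : Fl ρ P) : Fl ρ (fun x => -P x) := by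
  have := Fl.smulf (f := fun _ => (-1 : ℂ)) contDiff_const h
  refine this.congr one_pos fun x _ => ?_
  rw [neg_smul, one_smul]

theorem Fl.star {P : MC n N} (h : Fl ρ P) : Fl ρ (fun x => (P x)ᴴ) := by
  intro m
  obtain ⟨r, hr, E, hE, h1⟩ := h m
  refine ⟨r, hr, fun x => (E x)ᴴ, SmC_star hE, fun x hx => ?_⟩
  show (P x)ᴴ = _
  rw [h1 x hx, Matrix.conjTranspose_smul, Complex.star_def, Complex.conj_ofReal]

theorem Fl.zero {P : MC n N} (h : Fl ρ P) {x : V n} (hx : ρ x = 0) : P x = 0 := by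
  obtain ⟨r, hr, E, hE, h1⟩ := h 1
  rw [h1 x (by rw [hx, abs_zero]; exact hr), hx]
  simp

theorem pd_cxr {f : V n → ℝ} (hf : ContDiff ℝ ∞ f) (i : Fin n) (x : V n) :
    pd i (fun y => ((f y : ℝ) : ℂ)) x = ((pd i f x : ℝ) : ℂ) :=
  pd_clm Complex.ofRealCLM ((hf.differentiable (by simp)) x) i

theorem pdm_smulr {f : V n → ℝ} (hf : ContDiff ℝ ∞ f) {E : MC n N} (hE : SmC E) (i : Fin n)
    (x : V n) : pdm i (fun y => ((f y : ℝ) : ℂ) • E y) x =
      ((pd i f x : ℝ) : ℂ) • E x + ((f x : ℝ) : ℂ) • pdm i E x := by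
  ext a b
  simp only [pdm, Matrix.of_apply, Matrix.add_apply, Matrix.smul_apply, smul_eq_mul]
  rw [pd_mul (dfa (cxd hf) x) (dfa (hE a b) x), pd_cxr hf]

theorem Fl.pdm (hρ : ContDiff ℝ ∞ ρ) {P : MC n N} (h : Fl ρ P) (i : Fin n) :
    Fl ρ (LR.pdm i P) := by
  intro m
  obtain ⟨r, hr, E, hE, h1⟩ := h (m + 1)
  refine ⟨r, hr, fun x => ((((m : ℝ) + 1) * pd i ρ x : ℝ) : ℂ) • E x +
    ((ρ x : ℝ) : ℂ) • LR.pdm i E x, ?_, fun x hx => ?_⟩
  · exact sm_add (sm_smul (cxd (contDiff_const.mul (H833.cd_pd hρ i))) hE)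
      (sm_smul (cxd hρ) (sm_pdm hE i))
  · have ho : IsOpen {x | |ρ x| < r} := isOpen_lt hρ.continuous.abs continuous_const
    rw [pdm_congr ho (fun y (hy : |ρ y| < r) => h1 y hy) hx i,
      pdm_smulr (hρ.pow (m + 1)) hE, H833.pd_pow' hρ, smul_add, smul_smul, smul_smul]
    congr 2
    · push_cast
      ring
    · push_cast
      ring

/-! ### a transversal derivation -/

/-- `∑ v_i ∂_i`. -/
def DD (v : Fin n → V n → ℝ) (P : MC n N) (x : V n) : Matrix (Fin N) (Fin N) ℂ :=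
  ∑ i, ((v i x : ℝ) : ℂ) • pdm i P x

variable {v : Fin n → V n → ℝ}

theorem DD_mul {P Q : MC n N} (hP : SmC P) (hQ : SmC Q) (x : V n) :
    DD v (fun x => P x * Q x) x = DD v P x * Q x + P x * DD v Q x := by
  unfold DD
  rw [Finset.sum_mul, Finset.mul_sum, ← Finset.sum_add_distrib]
  refine Finset.sum_congr rfl fun i _ => ?_
  rw [pdm_mul hP hQ, smul_add, Matrix.smul_mul, Matrix.mul_smul]

theorem DD_star {P : MC n N} (hP : SmC P) (x : V n) : DD v (fun x => (P x)ᴴ) x = (DD v P x)ᴴ := by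
  unfold DD
  rw [Matrix.conjTranspose_sum]
  refine Finset.sum_congr rfl fun i _ => ?_
  rw [pdm_star hP, Matrix.conjTranspose_smul, Complex.star_def, Complex.conj_ofReal]

theorem DD_smulr {f : V n → ℝ} (hf : ContDiff ℝ ∞ f) {E : MC n N} (hE : SmC E) (x : V n) :
    DD v (fun y => ((f y : ℝ) : ℂ) • E y) x =
      (((∑ i, v i x * pd i f x : ℝ)) : ℂ) • E x + ((f x : ℝ) : ℂ) • DD v E x := by
  unfold DD
  rw [Complex.ofReal_sum, Finset.sum_smul, Finset.smul_sum, ← Finset.sum_add_distrib]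
  refine Finset.sum_congr rfl fun i _ => ?_
  rw [pdm_smulr hf hE, smul_add, smul_smul, smul_smul, smul_smul]
  congr 2
  · push_cast
    ring
  · ring

theorem pdm_add {P Q : MC n N} (hP : SmC P) (hQ : SmC Q) (i : Fin n) (x : V n) :
    pdm i (fun x => P x + Q x) x = pdm i P x + pdm i Q x := by
  ext a b
  simp only [pdm, Matrix.of_apply, Matrix.add_apply]
  exact pd_add (dfa (hP a b) x) (dfa (hQ a b) x) i

theorem DD_add {P Q : MC n N} (hP : SmC P) (hQ : SmC Q) (x : V n) :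
    DD v (fun x => P x + Q x) x = DD v P x + DD v Q x := by
  unfold DD
  rw [← Finset.sum_add_distrib]
  refine Finset.sum_congr rfl fun i _ => ?_
  rw [pdm_add hP hQ, smul_add]

theorem DD_const (C : Matrix (Fin N) (Fin N) ℂ) (x : V n) : DD v (fun _ => C) x = 0 := by
  unfold DD
  refine Finset.sum_eq_zero fun i _ => ?_
  rw [pdm_const, smul_zero]

theorem sm_sum {ι : Type*} (t : Finset ι) {P : ι → MC n N} (hP : ∀ i, SmC (P i)) :
    SmC (fun x => ∑ i ∈ t, P i x) := fun a b => by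
  have h : (fun x => (∑ i ∈ t, P i x) a b) = fun x => ∑ i ∈ t, P i x a b := by
    funext x
    rw [Matrix.sum_apply]
  rw [h]
  exact ContDiff.sum fun i _ => hP i a b

theorem sm_DD (hv : ∀ i, ContDiff ℝ ∞ (v i)) {P : MC n N} (hP : SmC P) : SmC (DD v P) :=
  sm_sum Finset.univ fun i => sm_smul (cxd (hv i)) (sm_pdm hP i)

theorem DD_congr {r : ℝ} (hρ : ContDiff ℝ ∞ ρ) {P Q : MC n N} (h : ∀ x, |ρ x| < r → P x = Q x)
    {x : V n} (hx : |ρ x| < r) : DD v P x = DD v Q x := by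
  have ho : IsOpen {x | |ρ x| < r} := isOpen_lt hρ.continuous.abs continuous_const
  unfold DD
  refine Finset.sum_congr rfl fun i _ => ?_
  rw [pdm_congr ho (fun y (hy : |ρ y| < r) => h y hy) hx i]

theorem Fl.DD (hρ : ContDiff ℝ ∞ ρ) (hv : ∀ i, ContDiff ℝ ∞ (v i)) {P : MC n N} (h : Fl ρ P) :
    Fl ρ (K72.DD v P) := by
  have h0 : ∀ t : Finset (Fin n), Fl ρ (fun x => ∑ i ∈ t, ((v i x : ℝ) : ℂ) • LR.pdm i P x) := by
    intro t
    classical
    induction t using Finset.induction_on with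
    | empty =>
      intro m
      refine ⟨1, one_pos, fun _ => 0, fun _ _ => contDiff_const, fun x _ => ?_⟩
      simp
    | insert j s hj ih =>
      refine (Fl.add (Fl.smulf (cxd (hv j)) (h.pdm hρ j)) ih).congr one_pos fun x _ => ?_
      rw [Finset.sum_insert hj]
  exact h0 Finset.univ

/-- A transversal vector field. -/
theorem exists_v (hD : Dom ρ) : ∃ v : Fin n → V n → ℝ, (∀ i, ContDiff ℝ ∞ (v i)) ∧
    (∀ i, ∀ x ∉ core n, v i x = 0) ∧ ∃ r > 0, ∀ x, |ρ x| < r →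
      (∑ i, v i x * pd i ρ x = 1) ∧ ∀ i, pd i ρ x = (∑ j, pd j ρ x ^ 2) * v i x := by
  have hσ : SmP (fun _ : V n => (1 : ℝ)) := ⟨contDiff_const, fun _ => one_pos⟩
  obtain ⟨-, κ, hκ, r, hr, h⟩ := H833.RC.setup hD hσ fun _ _ => rfl
  obtain ⟨m, hm⟩ := H833.RC.evq_iff.1 h
  have hs : SmM (sc fun _ : V n => (1 : ℝ)) := fun i j => H833.RC.cd_sc contDiff_const i j
  let t : H833.RC.Tr n := ⟨sc fun _ => 1, fun _ => 0, fun _ => 0, hs, contDiff_const,
    contDiff_const⟩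
  have h0 : ∀ {a : ℝ}, 0 ≤ a → Cl m a (fun _ : V n => (0 : ℝ)) := fun ha =>
    H535.cl_le H535.cl_zero le_rfl ha
  have ht : H833.RC.Aq (fun _ : V n => (1 : ℝ)) m t := by
    refine ⟨fun i j => ?_, h0 (by positivity), h0 (by positivity)⟩
    have e : (fun x => t.s x i j - sc (fun _ : V n => (1 : ℝ)) x i j) = fun _ => 0 := by
      funext x
      exact sub_self _
    rw [e]
    exact h0 (by positivity)
  have h1 := hm t ht
  have hg : ∀ x, gr t.s ρ ρ x = ∑ j, pd j ρ x ^ 2 := by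
    intro x
    show gr (sc fun _ => 1) ρ ρ x = _
    unfold gr
    refine Finset.sum_congr rfl fun i _ => ?_
    rw [Finset.sum_eq_single i]
    · simp [sc]; ring
    · intro j _ hj
      simp [sc, Matrix.one_apply_ne (Ne.symm hj)]
    · intro h; exact absurd (Finset.mem_univ _) h
  have hoff : ∀ i, ∀ x ∉ core n, pd i ρ x = 0 := by
    intro i x hx
    have ho : IsOpen (core n)ᶜ := H129.isCompact_core.isClosed.isOpen_compl
    have h2 : ρ =ᶠ[𝓝 x] fun _ => -1 := by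
      filter_upwards [ho.mem_nhds hx] with y hy
      exact hD.off y hy
    unfold pd
    rw [h2.fderiv_eq]
    simp
  refine ⟨fun i x => κ t x * pd i ρ x, fun i => (hκ.sm t).mul (H833.cd_pd hD.sm i),
    fun i x hx => by
      show κ t x * pd i ρ x = 0
      rw [hoff i x hx, mul_zero], r, hr, fun x hx => ?_⟩
  have h2 := h1 x hx
  rw [hg] at h2
  refine ⟨?_, fun i => ?_⟩
  · rw [← h2, Finset.mul_sum]
    exact Finset.sum_congr rfl fun i _ => by ring
  · linear_combination (-(pd i ρ x)) * h2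

end Vale.Agent.P088.LR.K72
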