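import Vale.Agent.P088.H72.K.Tg1

/-!
# P088, theorem JB, row K_TG (temporal gauge), second part: the series
-/

open MeasureTheory Set Filter Topology
open scoped ContDiff Matrix

noncomputable section

namespace Vale.Agent.P088.LR.K72

open Vale.Agent.P088.LR Vale.Agent.P088.LR.B Vale.Agent.P088.LR.CF Vale.Agent.P088.LR.U
  Vale.Agent.P088.LR.H158

variable {n N : ℕ} {ρ : V n → ℝ} {v : Fin n → V n → ℝ} {a₁ a₂ : MC n N}

theorem sm_neg {P : MC n N} (hP : SmC P) : SmC (fun x => -P x) := fun a b => (hP a b).neg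

theorem sm_sub {P Q : MC n N} (hP : SmC P) (hQ : SmC Q) : SmC (fun x => P x - Q x) :=
  fun a b => (hP a b).sub (hQ a b)

theorem sm_const (C : Matrix (Fin N) (Fin N) ℂ) : SmC (fun _ : V n => C) := fun _ _ =>
  contDiff_const

/-- `∑ v_i ∂_i P + a₂ P - P a₁`. -/
def LL (v : Fin n → V n → ℝ) (a₁ a₂ P : MC n N) (x : V n) : Matrix (Fin N) (Fin N) ℂ :=
  DD v P x + a₂ x * P x - P x * a₁ x

theorem LL_add {P Q : MC n N} (hP : SmC P) (hQ : SmC Q) (x : V n) :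
    LL v a₁ a₂ (fun x => P x + Q x) x = LL v a₁ a₂ P x + LL v a₁ a₂ Q x := by
  unfold LL
  rw [DD_add hP hQ, mul_add, add_mul]
  abel

theorem LL_smulr {f : V n → ℝ} (hf : ContDiff ℝ ∞ f) {E : MC n N} (hE : SmC E) (x : V n) :
    LL v a₁ a₂ (fun y => ((f y : ℝ) : ℂ) • E y) x =
      (((∑ i, v i x * pd i f x : ℝ)) : ℂ) • E x + ((f x : ℝ) : ℂ) • LL v a₁ a₂ E x := by
  unfold LL
  rw [DD_smulr hf hE, Matrix.mul_smul, Matrix.smul_mul, smul_sub, smul_add]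
  abel

theorem sm_LL (hv : ∀ i, ContDiff ℝ ∞ (v i)) (h₁ : SmC a₁) (h₂ : SmC a₂) {P : MC n N}
    (hP : SmC P) : SmC (LL v a₁ a₂ P) :=
  sm_sub (sm_add (sm_DD hv hP) (SmC_mul h₂ hP)) (SmC_mul hP h₁)

theorem Fl.LL (hρ : ContDiff ℝ ∞ ρ) (hv : ∀ i, ContDiff ℝ ∞ (v i)) (h₁ : SmC a₁) (h₂ : SmC a₂)
    {P : MC n N} (h : Fl ρ P) : Fl ρ (K72.LL v a₁ a₂ P) :=
  (((h.DD hρ hv).add (h.mulL h₂)).add (h.mulR h₁).neg).congr one_pos fun x _ => by
    unfold K72.LL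
    rw [sub_eq_add_neg]

/-- The coefficients. -/
def ck (v : Fin n → V n → ℝ) (a₁ a₂ : MC n N) : ℕ → MC n N
  | 0 => fun _ => 1
  | k + 1 => fun x => (-(1 / ((k : ℂ) + 1))) • LL v a₁ a₂ (ck v a₁ a₂ k) x

theorem sm_ck (hv : ∀ i, ContDiff ℝ ∞ (v i)) (h₁ : SmC a₁) (h₂ : SmC a₂) (k : ℕ) :
    SmC (ck v a₁ a₂ k) := by
  induction k with
  | zero => exact sm_const 1
  | succ k ih => exact sm_smul contDiff_const (sm_LL hv h₁ h₂ ih)

theorem LL_ck (k : ℕ) (x : V n) :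
    LL v a₁ a₂ (ck v a₁ a₂ k) x = (-((k : ℂ) + 1)) • ck v a₁ a₂ (k + 1) x := by
  have h : ((k : ℂ) + 1) ≠ 0 := Nat.cast_add_one_ne_zero k
  show _ = (-((k : ℂ) + 1)) • ((-(1 / ((k : ℂ) + 1))) • LL v a₁ a₂ (ck v a₁ a₂ k) x)
  rw [smul_smul]
  have e : -((k : ℂ) + 1) * -(1 / ((k : ℂ) + 1)) = 1 := by field_simp
  rw [e, one_smul]

/-- Partial sums. -/
def SS (ρ : V n → ℝ) (v : Fin n → V n → ℝ) (a₁ a₂ : MC n N) (M : ℕ) : MC n N :=
  fun x => ∑ i ∈ Finset.range (M + 1), ((ρ x ^ i : ℝ) : ℂ) • ck v a₁ a₂ i x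

theorem sm_SS (hρ : ContDiff ℝ ∞ ρ) (hv : ∀ i, ContDiff ℝ ∞ (v i)) (h₁ : SmC a₁) (h₂ : SmC a₂)
    (M : ℕ) : SmC (SS ρ v a₁ a₂ M) :=
  sm_sum _ fun i => sm_smul (cxd (hρ.pow i)) (sm_ck hv h₁ h₂ i)

theorem D_pow (hρ : ContDiff ℝ ∞ ρ) (m : ℕ) {x : V n} (h : ∑ i, v i x * pd i ρ x = 1) :
    ∑ i, v i x * pd i (fun y => ρ y ^ (m + 1)) x = ((m : ℝ) + 1) * ρ x ^ m := by
  have : ∀ i, v i x * pd i (fun y => ρ y ^ (m + 1)) x =
      (((m : ℝ) + 1) * ρ x ^ m) * (v i x * pd i ρ x) := fun i => by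
    rw [H833.pd_pow' hρ]
    ring
  simp only [this]
  rw [← Finset.mul_sum, h, mul_one]

theorem LL_SS (hρ : ContDiff ℝ ∞ ρ) (hv : ∀ i, ContDiff ℝ ∞ (v i)) (h₁ : SmC a₁) (h₂ : SmC a₂)
    (M : ℕ) {x : V n} (h : ∑ i, v i x * pd i ρ x = 1) :
    LL v a₁ a₂ (SS ρ v a₁ a₂ M) x =
      (-(((M : ℂ) + 1) * ((ρ x ^ M : ℝ) : ℂ))) • ck v a₁ a₂ (M + 1) x := by
  induction M with
  | zero =>
    have e : SS ρ v a₁ a₂ 0 = ck v a₁ a₂ 0 := by
      funext y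
      unfold SS
      simp
    rw [e, LL_ck]
    simp
  | succ M ih =>
    have e : SS ρ v a₁ a₂ (M + 1) = fun y => SS ρ v a₁ a₂ M y +
        ((ρ y ^ (M + 1) : ℝ) : ℂ) • ck v a₁ a₂ (M + 1) y := by
      funext y
      unfold SS
      rw [Finset.sum_range_succ _ (M + 1)]
    rw [e, LL_add (sm_SS hρ hv h₁ h₂ M) (sm_smul (cxd (hρ.pow (M + 1))) (sm_ck hv h₁ h₂ _)), ih,
      LL_smulr (hρ.pow (M + 1)) (sm_ck hv h₁ h₂ _), D_pow hρ M h, LL_ck, smul_smul, ← add_assoc,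
      ← add_smul]
    have e2 : -(((M : ℂ) + 1) * ((ρ x ^ M : ℝ) : ℂ)) +
        (((((M : ℝ) + 1) * ρ x ^ M : ℝ)) : ℂ) = 0 := by
      push_cast
      ring
    rw [e2, zero_smul, zero_add]
    congr 1
    push_cast
    ring

/-! ### smallness -/

theorem cl_scal {k : ℕ} {a : ℝ} {f : V n → ℂ} (hf : ContDiff ℝ ∞ f) (h : Cl k a f) {c : ℂ}
    (hc : ‖c‖ ≤ 1) : Cl k a (fun x => c * f x) := by
  have h1 := H535.cl_lin (c • ContinuousLinearMap.id ℝ ℂ) (by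
    refine ContinuousLinearMap.opNorm_le_bound _ zero_le_one fun z => ?_
    show ‖c * z‖ ≤ _
    rw [norm_mul]
    exact mul_le_mul_of_nonneg_right hc (norm_nonneg _)) hf h
  exact h1

theorem clc_mul {k : ℕ} {a b : ℝ} {P Q : MC n N} (hP : SmC P) (hQ : SmC Q) (h1 : ClC k a P)
    (h2 : ClC k b Q) : ClC k (N * (2 ^ k * (a * b))) (fun x => P x * Q x) := by
  intro α β
  have e : (fun x => (P x * Q x) α β) = fun x => ∑ γ, P x α γ * Q x γ β := by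
    funext x
    rw [Matrix.mul_apply]
  rw [e]
  have h := H535.cl_sum (Finset.univ : Finset (Fin N)) (k := k) (a := 2 ^ k * (a * b))
    (f := fun γ x => P x α γ * Q x γ β) (fun γ => (hP α γ).mul (hQ γ β))
    (fun γ => H535.cl_mul (hP α γ) (hQ γ β) (h1 α γ) (h2 γ β))
  simpa using h

theorem clc_add {k : ℕ} {a b : ℝ} {P Q : MC n N} (hP : SmC P) (hQ : SmC Q) (h1 : ClC k a P)
    (h2 : ClC k b Q) : ClC k (a + b) (fun x => P x + Q x) := fun α β =>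
  H535.cl_add (hP α β) (hQ α β) (h1 α β) (h2 α β)

theorem clc_scal {k : ℕ} {a : ℝ} {P : MC n N} (hP : SmC P) (h : ClC k a P) {c : ℂ}
    (hc : ‖c‖ ≤ 1) : ClC k a (fun x => c • P x) := fun α β => cl_scal (hP α β) (h α β) hc

theorem clc_le {k k' : ℕ} {a b : ℝ} {P : MC n N} (h : ClC k a P) (hk : k' ≤ k) (hab : a ≤ b) :
    ClC k' b P := fun α β => H535.cl_le (h α β) hk hab

theorem clc_smulf {k : ℕ} {a b : ℝ} {f : V n → ℝ} (hf : ContDiff ℝ ∞ f) {P : MC n N}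
    (hP : SmC P) (h1 : Cl k a (fun x => ((f x : ℝ) : ℂ))) (h2 : ClC k b P) :
    ClC k (2 ^ k * (a * b)) (fun x => ((f x : ℝ) : ℂ) • P x) := fun α β =>
  H535.cl_mul (cxd hf) (hP α β) h1 (h2 α β)

theorem clc_sum {ι : Type*} (t : Finset ι) {k : ℕ} {a : ℝ} {P : ι → MC n N}
    (hP : ∀ i, SmC (P i)) (h : ∀ i, ClC k a (P i)) :
    ClC k (t.card * a) (fun x => ∑ i ∈ t, P i x) := fun α β => by
  have e : (fun x => (∑ i ∈ t, P i x) α β) = fun x => ∑ i ∈ t, P i x α β := by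
    funext x
    rw [Matrix.sum_apply]
  rw [e]
  exact H535.cl_sum t (fun i => hP i α β) fun i => h i α β

theorem clc_DD {k : ℕ} {Bv b : ℝ} (hv : ∀ i, ContDiff ℝ ∞ (v i))
    (hB : ∀ i, Cl k Bv (fun x => ((v i x : ℝ) : ℂ))) {P : MC n N} (hP : SmC P)
    (h : ClC (k + 1) b P) : ClC k (n * (2 ^ k * (Bv * b))) (DD v P) := by
  have h1 := clc_sum (Finset.univ : Finset (Fin n)) (k := k) (a := 2 ^ k * (Bv * b))
    (P := fun i x => ((v i x : ℝ) : ℂ) • pdm i P x)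
    (fun i => sm_smul (cxd (hv i)) (sm_pdm hP i))
    (fun i => clc_smulf (hv i) (sm_pdm hP i) (hB i) fun α β => H634.cl_pd634 (hP α β) (h α β) i)
  rw [Finset.card_univ, Fintype.card_fin] at h1
  exact h1

theorem exists_Bv (hv : ∀ i, ContDiff ℝ ∞ (v i)) (h0 : ∀ i, ∀ x ∉ core n, v i x = 0) (k : ℕ) :
    ∃ B : ℝ, 0 < B ∧ ∀ i, Cl k B (fun x => ((v i x : ℝ) : ℂ)) := by
  have h := fun i => H634.bdd634 (cxd (hv i)) (fun x hx => by rw [h0 i x hx, Complex.ofReal_zero]) k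
  choose B hB hB1 using h
  refine ⟨1 + ∑ i, B i, ?_, fun i => H535.cl_le (hB1 i) le_rfl ?_⟩
  · have : 0 ≤ ∑ i, B i := Finset.sum_nonneg fun i _ => (hB i).le
    linarith
  · have : B i ≤ ∑ i, B i := Finset.single_le_sum (f := B) (fun i _ => (hB i).le)
      (Finset.mem_univ i)
    linarith

theorem ck_small (hv : ∀ i, ContDiff ℝ ∞ (v i)) (h0 : ∀ i, ∀ x ∉ core n, v i x = 0) (m : ℕ) :
    ∀ (k : ℕ) (ε : ℝ), 0 < ε → ∃ (K : ℕ) (δ : ℝ), 0 < δ ∧ ∀ a₁ a₂ : MC n N, SmC a₁ → SmC a₂ →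
      ClC K δ a₁ → ClC K δ a₂ → ClC k ε (ck v a₁ a₂ (m + 1)) := by
  induction m with
  | zero =>
    intro k ε hε
    refine ⟨k, ε / 2, by positivity, fun a₁ a₂ h₁ h₂ c₁ c₂ => ?_⟩
    have e : ck v a₁ a₂ (0 + 1) = fun x => (-1 : ℂ) • a₂ x + a₁ x := by
      funext x
      show (-(1 / (((0 : ℕ) : ℂ) + 1))) • (DD v (fun _ => 1) x + a₂ x * 1 - 1 * a₁ x) = _
      rw [DD_const, mul_one, one_mul, zero_add]
      simp only [Nat.cast_zero, zero_add, div_one, neg_smul, one_smul]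
      abel
    rw [e]
    refine clc_le (clc_add (sm_smul contDiff_const h₂) h₁ (clc_scal h₂ c₂ (by simp)) c₁) le_rfl
      (by linarith)
  | succ m ih =>
    intro k ε hε
    obtain ⟨Bv, hB0, hB⟩ := exists_Bv hv h0 k
    set C : ℝ := n * (2 ^ k * Bv) + 2 * (N * 2 ^ k) + 1 with hC
    have hC0 : 0 < C := by positivity
    obtain ⟨K, δ, hδ, h⟩ := ih (k + 1) (ε / C) (by positivity)
    refine ⟨max K k, min δ 1, by positivity, fun a₁ a₂ h₁ h₂ c₁ c₂ => ?_⟩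
    have hc := h a₁ a₂ h₁ h₂ (clc_le c₁ (le_max_left _ _) (min_le_left _ _))
      (clc_le c₂ (le_max_left _ _) (min_le_left _ _))
    have hs := sm_ck hv h₁ h₂ (m + 1)
    have hck := clc_le hc (Nat.le_succ k) le_rfl
    have d1 := clc_DD hv hB hs hc
    have d2 := clc_mul h₂ hs (clc_le c₂ (le_max_right _ _) (min_le_right _ _)) hck
    have d3 := clc_mul hs h₁ hck (clc_le c₁ (le_max_right _ _) (min_le_right _ _))
    have sD := sm_DD hv hs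
    have s2 := SmC_mul h₂ hs
    have s3 := SmC_mul hs h₁
    have d4 := clc_add (sm_add sD s2) (sm_smul (contDiff_const (c := (-1 : ℂ))) s3)
      (clc_add sD s2 d1 d2) (clc_scal s3 d3 (c := -1) (by simp))
    have e : ck v a₁ a₂ (m + 1 + 1) = fun x => (-(1 / (((m + 1 : ℕ) : ℂ) + 1))) •
        (DD v (ck v a₁ a₂ (m + 1)) x + a₂ x * ck v a₁ a₂ (m + 1) x +
          (-1 : ℂ) • (ck v a₁ a₂ (m + 1) x * a₁ x)) := by
      funext x
      show _ • LL v a₁ a₂ (ck v a₁ a₂ (m + 1)) x = _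
      unfold LL
      rw [neg_smul 1, one_smul, sub_eq_add_neg]
    rw [e]
    have hn : ‖(-(1 / (((m + 1 : ℕ) : ℂ) + 1)))‖ ≤ 1 := by
      rw [norm_neg, norm_div, norm_one]
      have : ‖(((m + 1 : ℕ) : ℂ) + 1)‖ = (m : ℝ) + 2 := by
        have h5 : (((m + 1 : ℕ) : ℂ) + 1) = ((m + 2 : ℕ) : ℂ) := by push_cast; ring
        rw [h5, Complex.norm_natCast]
        push_cast
        ring
      rw [this, div_le_one (by positivity)]
      have : (0 : ℝ) ≤ m := Nat.cast_nonneg m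
      linarith
    refine clc_le (clc_scal (sm_add (sm_add sD s2) (sm_smul contDiff_const s3)) d4 hn) le_rfl ?_
    have h6 : (n : ℝ) * (2 ^ k * (Bv * (ε / C))) + N * (2 ^ k * (1 * (ε / C))) +
        N * (2 ^ k * (ε / C * 1)) = (C - 1) * (ε / C) := by
      rw [hC]
      ring
    rw [h6]
    have h7 : C * (ε / C) = ε := by field_simp
    have h8 : 0 < ε / C := by positivity
    nlinarith

end Vale.Agent.P088.LR.K72
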