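import Vale.Agent.P088.H72.K.Tg2
import Vale.Agent.P088.H198.K.Defs

/-!
# P088, theorem JB, row K_TG (temporal gauge)
-/

open MeasureTheory Set Filter Topology
open scoped ContDiff Matrix

noncomputable section

namespace Vale.Agent.P088.LR.K72

open Vale.Agent.P088.LR Vale.Agent.P088.LR.B Vale.Agent.P088.LR.CF Vale.Agent.P088.LR.U
  Vale.Agent.P088.LR.H158

variable {n N : ℕ} {ρ : V n → ℝ} {v : Fin n → V n → ℝ} {a₁ a₂ : MC n N}

theorem ck_small_all (hv : ∀ i, ContDiff ℝ ∞ (v i)) (h0 : ∀ i, ∀ x ∉ core n, v i x = 0) (k : ℕ)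
    {ε : ℝ} (hε : 0 < ε) (M : ℕ) : ∃ (K : ℕ) (δ : ℝ), 0 < δ ∧ ∀ a₁ a₂ : MC n N, SmC a₁ → SmC a₂ →
      ClC K δ a₁ → ClC K δ a₂ → ∀ m < M, ClC k ε (ck v a₁ a₂ (m + 1)) := by
  induction M with
  | zero => exact ⟨0, 1, one_pos, fun _ _ _ _ _ _ m hm => absurd hm (Nat.not_lt_zero m)⟩
  | succ M ih =>
    obtain ⟨K, δ, hδ, h⟩ := ih
    obtain ⟨K', δ', hδ', h'⟩ := ck_small (N := N) hv h0 M k ε hε
    refine ⟨max K K', min δ δ', lt_min hδ hδ', fun a₁ a₂ s₁ s₂ c₁ c₂ m hm => ?_⟩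
    rcases Nat.lt_succ_iff_lt_or_eq.1 hm with h1 | h1
    · exact h a₁ a₂ s₁ s₂ (clc_le c₁ (le_max_left _ _) (min_le_left _ _))
        (clc_le c₂ (le_max_left _ _) (min_le_left _ _)) m h1
    · rw [h1]
      exact h' a₁ a₂ s₁ s₂ (clc_le c₁ (le_max_right _ _) (min_le_right _ _))
        (clc_le c₂ (le_max_right _ _) (min_le_right _ _))

/-- The coefficients, without the first one. -/
def cc (v : Fin n → V n → ℝ) (a₁ a₂ : MC n N) : ℕ → MC n N
  | 0 => fun _ => 0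
  | k + 1 => ck v a₁ a₂ (k + 1)

theorem sm_cc (hv : ∀ i, ContDiff ℝ ∞ (v i)) (h₁ : SmC a₁) (h₂ : SmC a₂) (k : ℕ) :
    SmC (cc v a₁ a₂ k) := by
  cases k with
  | zero => exact sm_const 0
  | succ k => exact sm_ck hv h₁ h₂ (k + 1)

/-- The Borel sum. -/
theorem series (hD : Dom ρ) (hv : ∀ i, ContDiff ℝ ∞ (v i)) (h0 : ∀ i, ∀ x ∉ core n, v i x = 0)
    {r : ℝ} (hr : 0 < r) (h1 : ∀ x, |ρ x| < r → ∑ i, v i x * pd i ρ x = 1) (k : ℕ) {ε : ℝ}
    (hε : 0 < ε) : ∃ (K : ℕ) (δ : ℝ), 0 < δ ∧ ∀ a₁ a₂ : MC n N, SmC a₁ → SmC a₂ →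
      ClC K δ a₁ → ClC K δ a₂ → ∃ U : MC n N, SmC U ∧ ClC k ε (fun x => U x - 1) ∧
        (∃ W : MC n N, SmC W ∧ ∀ x, U x = 1 + ((ρ x : ℝ) : ℂ) • W x) ∧ Fl ρ (LL v a₁ a₂ U) := by
  have hρ := hD.sm
  obtain ⟨δ₀, hδ₀, hB⟩ := H501B.borel hD k (half_pos hε)
  obtain ⟨K, δ, hδ, hs⟩ := ck_small_all (N := N) hv h0 k hδ₀ k
  refine ⟨K, δ, hδ, fun a₁ a₂ s₁ s₂ c₁ c₂ => ?_⟩
  have hsm := sm_cc hv s₁ s₂
  have hcl : ∀ m ≤ k, ClC k δ₀ (cc v a₁ a₂ m) := by
    intro m hm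
    cases m with
    | zero =>
      intro α β
      exact H535.cl_le (H535.cl_zero (F := ℂ)) le_rfl hδ₀.le
    | succ m => exact hs a₁ a₂ s₁ s₂ c₁ c₂ m hm
  have hre := fun α β => hB (fun m x => (cc v a₁ a₂ m x α β).re)
    (fun m => Complex.reCLM.contDiff.comp (hsm m α β))
    (fun m hm => H535.cl_lin Complex.reCLM (by rw [Complex.reCLM_norm]) (hsm m α β)
      (hcl m hm α β))
  have him := fun α β => hB (fun m x => (cc v a₁ a₂ m x α β).im)
    (fun m => Complex.imCLM.contDiff.comp (hsm m α β))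
    (fun m hm => H535.cl_lin Complex.imCLM (by rw [Complex.imCLM_norm]) (hsm m α β)
      (hcl m hm α β))
  choose u hu huk hue using hre
  choose w hw hwk hwe using him
  set W : MC n N := fun x => Matrix.of fun α β => ((u α β x : ℝ) : ℂ) +
    Complex.I * ((w α β x : ℝ) : ℂ) with hW
  have sW : SmC W := fun α β => (cxd (hu α β)).add (contDiff_const.mul (cxd (hw α β)))
  have cW : ClC k ε W := by
    intro α β
    have e1 : Cl k (ε / 2) (fun x => ((u α β x : ℝ) : ℂ)) :=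
      H535.cl_lin Complex.ofRealCLM (by rw [Complex.ofRealCLM_norm]) (hu α β) (huk α β)
    have e2 : Cl k (ε / 2) (fun x => ((w α β x : ℝ) : ℂ)) :=
      H535.cl_lin Complex.ofRealCLM (by rw [Complex.ofRealCLM_norm]) (hw α β) (hwk α β)
    have e3 := H535.cl_add (cxd (hu α β)) (contDiff_const.mul (cxd (hw α β))) e1
      (cl_scal (cxd (hw α β)) e2 (c := Complex.I) (by simp))
    exact H535.cl_le e3 le_rfl (by linarith)
  have hexp : ∀ M : ℕ, ∃ h : MC n N, SmC h ∧ ∀ x,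
      W x = (∑ m ∈ Finset.range M, ((ρ x ^ m : ℝ) : ℂ) • cc v a₁ a₂ m x) +
        ((ρ x ^ M : ℝ) : ℂ) • h x := by
    intro M
    have g1 := fun α β => hue α β M
    have g2 := fun α β => hwe α β M
    choose p hp hp1 using g1
    choose q hq hq1 using g2
    refine ⟨fun x => Matrix.of fun α β => ((p α β x : ℝ) : ℂ) + Complex.I * ((q α β x : ℝ) : ℂ),
      fun α β => (cxd (hp α β)).add (contDiff_const.mul (cxd (hq α β))), fun x => ?_⟩
    ext α β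
    rw [Matrix.add_apply, Matrix.sum_apply, Matrix.smul_apply]
    simp only [hW, Matrix.of_apply, Matrix.smul_apply, smul_eq_mul]
    rw [hp1 α β x, hq1 α β x]
    push_cast
    rw [mul_add, Finset.mul_sum]
    have e : ∀ m, ((ρ x : ℝ) : ℂ) ^ m * cc v a₁ a₂ m x α β =
        ((ρ x : ℝ) : ℂ) ^ m * ((cc v a₁ a₂ m x α β).re : ℂ) +
          Complex.I * (((ρ x : ℝ) : ℂ) ^ m * ((cc v a₁ a₂ m x α β).im : ℂ)) := by
      intro m
      conv_lhs => rw [← Complex.re_add_im (cc v a₁ a₂ m x α β)]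
      ring
    simp only [e, Finset.sum_add_distrib]
    ring
  refine ⟨fun x => 1 + W x, sm_add (sm_const 1) sW, ?_, ?_, ?_⟩
  · have e : (fun x => 1 + W x - 1) = W := by
      funext x
      rw [add_sub_cancel_left]
    rw [e]
    exact cW
  · obtain ⟨h, hh, h2⟩ := hexp 1
    refine ⟨h, hh, fun x => ?_⟩
    show 1 + W x = _
    rw [h2 x, Finset.sum_range_one]
    show 1 + (_ • (0 : Matrix (Fin N) (Fin N) ℂ) + _) = _
    rw [smul_zero, zero_add, pow_one]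
  · intro m
    obtain ⟨h, hh, h2⟩ := hexp (m + 1)
    have e : (fun x => 1 + W x) = fun x => SS ρ v a₁ a₂ m x + ((ρ x ^ (m + 1) : ℝ) : ℂ) • h x := by
      funext x
      rw [h2 x, ← add_assoc]
      congr 1
      unfold SS
      rw [Finset.sum_range_succ', Finset.sum_range_succ']
      show 1 + (_ + _ • (0 : Matrix (Fin N) (Fin N) ℂ)) = _ + _ • (1 : Matrix (Fin N) (Fin N) ℂ)
      rw [smul_zero, add_zero, pow_zero, Complex.ofReal_one, one_smul, add_comm]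
      rfl
    refine ⟨r, hr, fun x => (-((m : ℂ) + 1)) • ck v a₁ a₂ (m + 1) x + ((m : ℂ) + 1) • h x +
      ((ρ x : ℝ) : ℂ) • LL v a₁ a₂ h x, ?_, fun x hx => ?_⟩
    · exact sm_add (sm_add (sm_smul contDiff_const (sm_ck hv s₁ s₂ _))
        (sm_smul contDiff_const hh)) (sm_smul (cxd hρ) (sm_LL hv s₁ s₂ hh))
    · rw [e, LL_add (sm_SS hρ hv s₁ s₂ m) (sm_smul (cxd (hρ.pow (m + 1))) hh),
        LL_SS hρ hv s₁ s₂ m (h1 x hx), LL_smulr (hρ.pow (m + 1)) hh, D_pow hρ m (h1 x hx)]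
      push_cast
      module

end Vale.Agent.P088.LR.K72
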